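import Vale.Agent.P032.R2.H306.Disc7
import Vale.Agent.P032.R2.H962.SilTop
import Vale.Agent.P032.R2.H194.Fin2
import Vale.Agent.P032.R2.H758.Five

/-!
# P032: clean points with six colours have no silent colour

`active` : each of the six colours of a clean point is in a pair of its unit circle.
-/

open Set Filter Topology Metric

noncomputable section

namespace Vale.Agent.P032.R2.H306

open Vale.Agent.P032.Six Vale.Agent.P032.Words6.H704

/-- **No silent colour.** -/
theorem active {U : Fin 6 → Set ℂ} {T : ℂ → Set (Fin 6)} {z : ℂ} (h : Irr U T) (hmin : Mn U T)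
    (h6 : (T z).ncard = 6) (hcl : ∀ y, dist y z = 1 → (T y).ncard ≤ 3) (i : Fin 6) :
    ∃ q, dist q z = 1 ∧ i ∈ T q ∧ (T q).ncard = 2 := by
  have hz : T z = univ := by
    refine Set.eq_of_subset_of_ncard_le (subset_univ _) ?_ (Set.toFinite _)
    rw [Set.ncard_univ, Nat.card_eq_fintype_card, Fintype.card_fin, h6]
  have C : Six6 U T z := ⟨h, fun i => by rw [hz]; exact mem_univ i, hcl⟩
  exact H962.no_silent_of H194.fin2 C hmin fun hs => H758.ne_five C hmin hs

theorem actLoc : ActLoc := fun _ _ h hmin _ h6 hcl _ _ i => active h hmin h6 hcl i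

end Vale.Agent.P032.R2.H306
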