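import Vale.Agent.P032.S5.H306.Disc6

/-!
# P032: every disc, no order bound, no silent colours

`disc7` : every closed disc of radius `24` contains a point near which no four of the sets suffice
with a point at distance one near which no three suffice, or a point near which no three suffice and
which is a limit of two-pair points.
`pair7` : the statement with two points at distance one.
Both from the local theorems on clean points of five and six colours and the theorem that a clean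
point of six colours has, for each colour, a pair with this colour on its circle.
-/

open Set Filter Topology Metric

noncomputable section

namespace Vale.Agent.P032.R2.H306

open Vale.Agent.P032.Six Vale.Agent.P032.S5.H926 Vale.Agent.P032.S5.H843 Vale.Agent.P032.S5.H138
  Vale.Agent.P032.S5.H306

/-- a clean point with six colours has on its circle, for each colour, a pair with this colour, if
within distance two there are no points with five colours and the two-pair points are clean -/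
def ActLoc : Prop :=
  ∀ (U : Fin 6 → Set ℂ) (T : ℂ → Set (Fin 6)), Irr U T → Mn U T →
    ∀ z, (T z).ncard = 6 → (∀ y, dist y z = 1 → (T y).ncard ≤ 3) →
      (∀ w, dist w z ≤ 2 → (T w).ncard ≠ 5) →
      (∀ w, dist w z ≤ 2 → (∃ a b c d, DPt T w a b c d) → ∀ y, dist y w = 1 → (T y).ncard ≤ 3) →
      ∀ i, ∃ q, dist q z = 1 ∧ i ∈ T q ∧ (T q).ncard = 2

/-- no clean points with six colours, local form -/
theorem noSixLoc_of (H6 : NoSixALoc) (HA : ActLoc) : NoSixLoc 2 := by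
  intro U T h hmin z h6 hcl h5 hD
  have hz : ∀ y, dist y z = 1 → (T y).ncard ≤ 3 := hcl z (by simp) (by omega)
  have hDc : ∀ w, dist w z ≤ 2 → (∃ a b c d, DPt T w a b c d) →
      ∀ y, dist y w = 1 → (T y).ncard ≤ 3 := by
    rintro w hw ⟨a, b, c, d, hDw⟩
    exact absurd hDw (hD w hw a b c d)
  exact H6 U T h hmin z h6 hz h5 hDc (HA U T h hmin z h6 hz h5 hDc)

/-- no clean points with six colours, global form -/
theorem noSix_of (H6 : NoSixALoc) (HA : ActLoc) : NoSix := by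
  intro U T h hmin hu h5 z h6 hz
  have hDc : ∀ w, dist w z ≤ 2 → (∃ a b c d, DPt T w a b c d) →
      ∀ y, dist y w = 1 → (T y).ncard ≤ 3 := by
    intro w _ hD y hy
    by_contra hcon
    exact hu w y (by rw [dist_comm]; exact hy) (by omega) (Or.inr hD)
  exact H6 U T h hmin z h6 hz (fun w _ => h5 w) hDc (HA U T h hmin z h6 hz (fun w _ => h5 w) hDc)

theorem not_XU6 {U : Fin 6 → Set (EuclideanSpace ℝ (Fin 2))} {z : EuclideanSpace ℝ (Fin 2)}
    (h6 : z ∈ XU U 6) : False := by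
  have h1 := h6 univ ((Set.ncard_le_card _).trans (by simp))
  have h2 : (⋃ j, U j) \ ⋃ i ∈ (univ : Set (Fin 6)), U i = ∅ := by
    rw [sdiff_eq_empty]
    exact fun x hx => by
      obtain ⟨j, hj⟩ := mem_iUnion.1 hx
      exact mem_iUnion₂.2 ⟨j, mem_univ j, hj⟩
  rw [h2, closure_empty] at h1
  exact h1

/-- **Disc form, no order bound, no silent colours.** -/
theorem disc7 (H : NoFiveLoc) {r : ℝ} (hr : 0 ≤ r) (H6 : NoSixLoc r)
    {U : Fin 6 → Set (EuclideanSpace ℝ (Fin 2))} (hd : Dense (⋃ i, U i))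
    (hU : ∀ i, Maximal (fun W : Set (EuclideanSpace ℝ (Fin 2)) =>
      IsOpen W ∧ ∀ x ∈ W, ∀ y ∈ W, dist x y ≠ 1) (U i)) (c : EuclideanSpace ℝ (Fin 2)) :
    ∃ z, dist z c ≤ 22 + r ∧ ((z ∈ XU U 4 ∧ ∃ z' ∈ XU U 3, dist z z' = 1) ∨
      (z ∈ XU U 3 ∧ z ∈ closure {x | DV U x})) := by
  obtain ⟨z, hz, h6 | h⟩ := exists_discUV_of (R := 22 + r) (m := 6) (by norm_num) le_rfl hU hd
    (fun _ _ c h hmin _ hu => h.disc_core6 hmin c hr hu (fun z _ h5 h3 hD =>
      H _ _ h hmin z h5 h3 hD) fun z _ h6 h1 h2 h3 => H6 _ _ h hmin z h6 h1 h2 h3) c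
  · exact (not_XU6 h6).elim
  · exact ⟨z, hz, h⟩

/-- **Two points at distance one, no order bound, no silent colours.** -/
theorem pair7 (H : NoFive) (H6 : NoSix) {U : Fin 6 → Set (EuclideanSpace ℝ (Fin 2))}
    (hd : Dense (⋃ i, U i))
    (hU : ∀ i, Maximal (fun W : Set (EuclideanSpace ℝ (Fin 2)) =>
      IsOpen W ∧ ∀ x ∈ W, ∀ y ∈ W, dist x y ≠ 1) (U i)) :
    ∃ z z', dist z z' = 1 ∧ z ∈ XU U 3 ∧ z' ∈ XU U 3 ∧
      (z ∈ XU U 4 ∨ z ∈ closure {x | DV U x}) := by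
  rcases exists_pairV_of (m := 6) (by norm_num) hU hd fun _ _ h hmin _ hu =>
    core6 H H6 h hmin hu with ⟨z, hz⟩ | h
  · exact (not_XU6 hz).elim
  · exact h

/-- the statement in the plane -/
theorem result7 (H : NoFiveLoc) (H5 : NoFive) (H6 : NoSixALoc) (HA : ActLoc) :
    (∀ V : Fin 6 → Set (EuclideanSpace ℝ (Fin 2)), (∀ i, IsOpen (V i)) →
      (∀ i, ∀ x ∈ V i, ∀ y ∈ V i, dist x y ≠ 1) → Dense (⋃ i, V i) →
      ∃ U : Fin 6 → Set (EuclideanSpace ℝ (Fin 2)), (∀ i, V i ⊆ U i) ∧ Dense (⋃ i, U i) ∧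
        ∀ i, Maximal (fun W : Set (EuclideanSpace ℝ (Fin 2)) =>
          IsOpen W ∧ ∀ x ∈ W, ∀ y ∈ W, dist x y ≠ 1) (U i)) ∧
    (∀ U : Fin 6 → Set (EuclideanSpace ℝ (Fin 2)), Dense (⋃ i, U i) →
      (∀ i, Maximal (fun W : Set (EuclideanSpace ℝ (Fin 2)) =>
        IsOpen W ∧ ∀ x ∈ W, ∀ y ∈ W, dist x y ≠ 1) (U i)) →
      (∀ o : EuclideanSpace ℝ (Fin 2), ∃ z, dist z o ≤ 24 ∧
        (((∀ s : Set (Fin 6), s.ncard ≤ 4 → z ∈ closure ((⋃ j, U j) \ ⋃ i ∈ s, U i)) ∧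
          ∃ z', dist z z' = 1 ∧
            ∀ s : Set (Fin 6), s.ncard ≤ 3 → z' ∈ closure ((⋃ j, U j) \ ⋃ i ∈ s, U i)) ∨
        ((∀ s : Set (Fin 6), s.ncard ≤ 3 → z ∈ closure ((⋃ j, U j) \ ⋃ i ∈ s, U i)) ∧
          z ∈ closure {x | ∃ a b c d : Fin 6, [a, b, c, d].Nodup ∧
            x ∉ closure ((⋃ j, U j) \ ⋃ i ∈ ({a, b, c, d} : Set (Fin 6)), U i) ∧
            (∀ s ⊂ ({a, b, c, d} : Set (Fin 6)), x ∈ closure ((⋃ j, U j) \ ⋃ i ∈ s, U i)) ∧
            ∃ p q, dist p x = 1 ∧ dist q x = 1 ∧ ∃ r > 0,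
              (∀ y, dist y x = 1 → dist y p < r → y ∈ closure (U a) ∧ y ∈ closure (U b) ∧
                y ∉ closure ((⋃ j, U j) \ ⋃ i ∈ ({a, b} : Set (Fin 6)), U i)) ∧
              ∀ y, dist y x = 1 → dist y q < r → y ∈ closure (U c) ∧ y ∈ closure (U d) ∧
                y ∉ closure ((⋃ j, U j) \ ⋃ i ∈ ({c, d} : Set (Fin 6)), U i)}))) ∧
      ∃ z z', dist z z' = 1 ∧
        (∀ s : Set (Fin 6), s.ncard ≤ 3 → z ∈ closure ((⋃ j, U j) \ ⋃ i ∈ s, U i)) ∧
        (∀ s : Set (Fin 6), s.ncard ≤ 3 → z' ∈ closure ((⋃ j, U j) \ ⋃ i ∈ s, U i)) ∧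
        ((∀ s : Set (Fin 6), s.ncard ≤ 4 → z ∈ closure ((⋃ j, U j) \ ⋃ i ∈ s, U i)) ∨
          z ∈ closure {x | ∃ a b c d : Fin 6, [a, b, c, d].Nodup ∧
            x ∉ closure ((⋃ j, U j) \ ⋃ i ∈ ({a, b, c, d} : Set (Fin 6)), U i) ∧
            (∀ s ⊂ ({a, b, c, d} : Set (Fin 6)), x ∈ closure ((⋃ j, U j) \ ⋃ i ∈ s, U i)) ∧
            ∃ p q, dist p x = 1 ∧ dist q x = 1 ∧ ∃ r > 0,
              (∀ y, dist y x = 1 → dist y p < r → y ∈ closure (U a) ∧ y ∈ closure (U b) ∧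
                y ∉ closure ((⋃ j, U j) \ ⋃ i ∈ ({a, b} : Set (Fin 6)), U i)) ∧
              ∀ y, dist y x = 1 → dist y q < r → y ∈ closure (U c) ∧ y ∈ closure (U d) ∧
                y ∉ closure ((⋃ j, U j) \ ⋃ i ∈ ({c, d} : Set (Fin 6)), U i)})) := by
  refine ⟨fun V hV hfree hd => ?_, fun U hd hU => ⟨fun o => ?_, ?_⟩⟩
  · choose U hVU hU using fun i =>
      Vale.Agent.P032.S5.H926.exists_maximal_ge (hV i) (hfree i)
    exact ⟨U, hVU, hd.mono (iUnion_mono hVU), hU⟩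
  · obtain ⟨z, hz, h⟩ := disc7 H (r := 2) (by norm_num) (noSixLoc_of H6 HA) hd hU o
    refine ⟨z, by linarith, h.imp (fun h => ⟨h.1, ?_⟩) id⟩
    obtain ⟨z', h1, h2⟩ := h.2
    exact ⟨z', h2, h1⟩
  · exact pair7 H5 (noSix_of H6 HA) hd hU

end Vale.Agent.P032.R2.H306
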