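import Vale.Agent.P032.R2.H306.Loc.LNoD
import Vale.Agent.P032.R2.H306.Disc7
import Vale.Agent.P032.S5.H926.FiveLoc

/-!
# P032: every disc contains a point of a pair at distance one

`disc_pair` : every closed disc of radius `38` contains a point near which no three of the sets
suffice with another such point at distance one, and near the first point no four of the sets
suffice or it is a limit of two-pair points.
-/

open Set Filter Topology Metric

noncomputable section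

namespace Vale.Agent.P032.R2.H306

open Vale.Agent.P032.Six Vale.Agent.P032.S5.H926 Vale.Agent.P032.S5.H843 Vale.Agent.P032.S5.H138
  Vale.Agent.P032.S5.H306 Vale.Agent.P032.S5.H450

/-- no clean five coloured points if the two-pair points within distance two are clean -/
theorem no_five_clean {U : Fin 6 → Set ℂ} {T : ℂ → Set (Fin 6)} (h : Irr U T) (hmin : Mn U T)
    {z : ℂ} (h5 : (T z).ncard = 5) (h3 : ∀ y, dist y z = 1 → (T y).ncard ≤ 3)
    (hD : ∀ w, dist w z ≤ 2 → (∃ a b c d, DPt T w a b c d) →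
      ∀ y, dist y w = 1 → (T y).ncard ≤ 3) : False := by
  refine no_five_dloc h hmin (fun X c v x a d hc N ha hac hd hdc y hy => ?_) h5 h3
  obtain ⟨a, b, c', d, k⟩ := Vale.Agent.P032.S5.H122.dpt_of_light h N ha hac hd hdc
  exact hD c hc ⟨a, b, c', d, k⟩ y hy

/-- **The core, disc form with pairs** -/
theorem disc_pair_core (H6 : NoSixALoc) (HA : ActLoc) {U : Fin 6 → Set ℂ} {T : ℂ → Set (Fin 6)}
    (h : Irr U T) (hmin : Mn U T) (c : ℂ)
    (hU : ∀ z, dist z c ≤ 38 → ∀ v, dist z v = 1 → 4 ≤ (T v).ncard →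
      (5 ≤ (T z).ncard ∨ ∃ a b c d, DPt T z a b c d) → False) : False := by
  have hcl : ∀ z, dist z c ≤ 38 → (5 ≤ (T z).ncard ∨ ∃ a b c d, DPt T z a b c d) →
      ∀ y, dist y z = 1 → (T y).ncard ≤ 3 := by
    intro z hz h1 y hy
    by_contra h2
    exact hU z hz y (by rw [dist_comm]; exact hy) (by omega) h1
  have n5 : ∀ z, dist z c ≤ 36 → (T z).ncard ≠ 5 := fun z hz h5 =>
    no_five_clean h hmin h5 (hcl z (by linarith) (Or.inl h5.ge)) fun w hw hD =>
      hcl w (by have := dist_triangle w z c; linarith) (Or.inr hD)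
  have n6 : ∀ z, dist z c ≤ 34 → (T z).ncard ≠ 6 := by
    intro z hz h6
    have hz3 := hcl z (by linarith) (Or.inl (by omega))
    have k5 : ∀ w, dist w z ≤ 2 → (T w).ncard ≠ 5 := fun w hw =>
      n5 w (by have := dist_triangle w z c; linarith)
    have kD : ∀ w, dist w z ≤ 2 → (∃ a b c d, DPt T w a b c d) →
        ∀ y, dist y w = 1 → (T y).ncard ≤ 3 := fun w hw hD =>
      hcl w (by have := dist_triangle w z c; linarith) (Or.inr hD)
    exact H6 U T h hmin z h6 hz3 k5 kD (HA U T h hmin z h6 hz3 k5 kD)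
  have h4 : ∀ z, dist z c ≤ 34 → (T z).ncard ≤ 4 := by
    intro z hz
    have h1 := Set.ncard_le_ncard (s := T z) (t := univ) (subset_univ _) (Set.toFinite _)
    rw [Set.ncard_univ, Nat.card_eq_fintype_card, Fintype.card_fin] at h1
    have h2 := n5 z (by linarith)
    have h3 := n6 z hz
    omega
  obtain ⟨z, hz, a, b, c', d, hD⟩ := h.exists_D_disc hmin c fun z hz => h4 z (by linarith)
  refine Loc.no_D_of_GG h (z := z) (fun w hw => ?_) hD
  have hw' : dist w z ≤ 12 := by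
    refine hw.trans (le_of_eq ?_)
    norm_num
  refine ⟨fun x hx => h4 x ?_, fun a b c' d hDw => hcl w ?_ (Or.inr ⟨a, b, c', d, hDw⟩)⟩
  · have h1 := dist_triangle x w z
    have h2 := dist_triangle x z c
    linarith
  · have h1 := dist_triangle w z c
    linarith

/-- **The frame, disc form with pairs** -/
theorem exists_T_discPair {U : Fin 6 → Set ℂ}
    (hU : ∀ i, Maximal (fun W : Set ℂ => IsOpen W ∧ ∀ x ∈ W, ∀ y ∈ W, dist x y ≠ 1) (U i))
    (hd : Dense (⋃ i, U i)) {D : Set ℂ} (hD : IsClosed D)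
    (hp : ∀ z ∈ D, z ∈ XU U 3 → z ∈ XU U 4 ∨ z ∈ closure {x | DV U x} →
      ∀ v ∈ XU U 3, dist z v ≠ 1) :
    ∃ T, Irr U T ∧ Mn U T ∧ ∀ z ∈ D, ∀ v, dist z v = 1 → 4 ≤ (T v).ncard →
      (5 ≤ (T z).ncard ∨ ∃ a b c d, DPt T z a b c d) → False := by
  classical
  set K : Set ℂ := D ∩ (XU U 3 ∩ (XU U 4 ∪ closure {x | DV U x})) with hK
  have hKc : IsClosed K :=
    hD.inter ((isClosed_XU U 3).inter ((isClosed_XU U 4).union isClosed_closure))
  obtain ⟨N₅, V, hN₅, hV, hKN, hXV, hfree⟩ := exists_open_free₂ hKc (isClosed_XU U 3)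
    (fun z hz v hv => hp z hz.1 hz.2.1 hz.2.2 v hv)
  set V' : Set ℂ := V ∩ (D ∩ (closure {x | DV U x} ∩ N₅ᶜ))ᶜ with hV'
  have hV'o : IsOpen V' :=
    hV.inter (hD.inter (isClosed_closure.inter hN₅.isClosed_compl)).isOpen_compl
  have hXV' : XU U 3 ⊆ V' := fun x hx =>
    ⟨hXV hx, fun h1 => h1.2.2 (hKN ⟨h1.1, hx, Or.inr h1.2.1⟩)⟩
  have hX4 : ∀ x ∈ D, x ∈ XU U 4 → x ∈ N₅ := fun x hxD hx =>
    hKN ⟨hxD, XU_anti U (by norm_num) hx, Or.inl hx⟩
  set N : ℂ → ℕ := fun x => if x ∈ V' then (if x ∈ D then (if x ∈ N₅ then 6 else 4) else 6) else 3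
    with hNdef
  have hNs : ∀ x, ∀ᶠ w in 𝓝 x, N x ≤ N w := by
    intro x
    by_cases hx : x ∈ V'
    · by_cases hxD : x ∈ D
      · by_cases hx5 : x ∈ N₅
        · filter_upwards [hV'o.mem_nhds hx, hN₅.mem_nhds hx5] with w hw hw5
          simp only [hNdef, if_pos hx, if_pos hxD, if_pos hx5, if_pos hw, if_pos hw5]
          split_ifs <;> omega
        · filter_upwards [hV'o.mem_nhds hx] with w hw
          simp only [hNdef, if_pos hx, if_pos hxD, if_neg hx5, if_pos hw]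
          split_ifs <;> omega
      · filter_upwards [hV'o.mem_nhds hx, hD.isOpen_compl.mem_nhds hxD] with w hw hwD
        have hwD' : w ∉ D := hwD
        simp only [hNdef, if_pos hx, if_neg hxD, if_pos hw, if_neg hwD', le_refl]
    · filter_upwards with w
      simp only [hNdef, if_neg hx]
      split_ifs <;> omega
  have hN3 : ∀ x, 3 ≤ N x := by
    intro x
    simp only [hNdef]
    split_ifs <;> omega
  have hex : ∀ n z, z ∉ XU U n → ∃ s : Set (Fin 6), s.ncard ≤ n ∧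
      ∀ᶠ w in 𝓝 z, ∃ i ∈ s, w ∈ U i ∨ (w ∈ XX U ∧ i ∈ Pal U w) := by
    intro n z hz
    simp only [XU, mem_ofPred_eq] at hz
    push Not at hz
    obtain ⟨s, hs, hsz⟩ := hz
    exact ⟨s, hs, suf_of_notMem hd hsz⟩
  have hall : ∀ z : ℂ, ∃ s : Set (Fin 6), s.ncard ≤ 6 ∧
      ∀ᶠ w in 𝓝 z, ∃ i ∈ s, w ∈ U i ∨ (w ∈ XX U ∧ i ∈ Pal U w) := by
    intro z
    refine ⟨univ, (Set.ncard_le_card _).trans (by simp), suf_of_notMem hd ?_⟩
    have : (⋃ j, U j) \ ⋃ i ∈ (univ : Set (Fin 6)), U i = ∅ := by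
      rw [sdiff_eq_empty]
      exact fun x hx => by
        obtain ⟨j, hj⟩ := mem_iUnion.1 hx
        exact mem_iUnion₂.2 ⟨j, mem_univ j, hj⟩
    rw [this, closure_empty]
    exact notMem_empty z
  obtain ⟨T, hT, hmin, hle⟩ := exists_frameN (Mx_of_maximal hU hd)
    (fun i x hx => (mem_iff_of_maximal (hU i) x).2 hx) hNs hN3 (fun z _ => by
      by_cases hz : z ∈ V'
      · by_cases hzD : z ∈ D
        · by_cases hz5 : z ∈ N₅
          · obtain ⟨s, h1, h2⟩ := hall z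
            exact ⟨s, by simpa only [hNdef, if_pos hz, if_pos hzD, if_pos hz5] using h1, h2⟩
          · obtain ⟨s, h1, h2⟩ := hex 4 z fun h => hz5 (hX4 z hzD h)
            exact ⟨s, by simpa only [hNdef, if_pos hz, if_pos hzD, if_neg hz5] using h1, h2⟩
        · obtain ⟨s, h1, h2⟩ := hall z
          exact ⟨s, by simpa only [hNdef, if_pos hz, if_neg hzD] using h1, h2⟩
      · obtain ⟨s, h1, h2⟩ := hex 3 z fun h => hz (hXV' h)
        exact ⟨s, by simpa only [hNdef, if_neg hz] using h1, h2⟩)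
  have hV4 : ∀ v, 4 ≤ (T v).ncard → v ∈ V' := by
    intro v hv
    by_contra hcon
    have h1 := hle v
    simp only [hNdef, if_neg hcon] at h1
    omega
  refine ⟨T, hT, hmin, fun z hzD v hzv hv hz => ?_⟩
  refine hfree z ?_ v (hV4 v hv).1 hzv
  rcases hz with h5 | ⟨a, b, c, d, hz⟩
  · by_contra hcon
    have h1 := hle z
    simp only [hNdef, if_pos hzD, if_neg hcon] at h1
    split_ifs at h1 <;> omega
  · have h6 : z ∈ V' := hV4 z (ncard_DPt hz)
    by_contra hcon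
    exact h6.2 ⟨hzD, subset_closure (DV_of_DPt hT hmin hd hz), hcon⟩

/-- **Statement in the plane, disc form with pairs** -/
theorem exists_discPair_of {R : ℝ} {U : Fin 6 → Set (EuclideanSpace ℝ (Fin 2))}
    (hU : ∀ i, Maximal (fun W : Set (EuclideanSpace ℝ (Fin 2)) =>
      IsOpen W ∧ ∀ x ∈ W, ∀ y ∈ W, dist x y ≠ 1) (U i))
    (hd : Dense (⋃ i, U i))
    (top : ∀ (V : Fin 6 → Set ℂ) (T : ℂ → Set (Fin 6)) (c : ℂ), Irr V T → Mn V T →
      (∀ z, dist z c ≤ R → ∀ v, dist z v = 1 → 4 ≤ (T v).ncard →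
        (5 ≤ (T z).ncard ∨ ∃ a b c' d, DPt T z a b c' d) → False) → False)
    (c : EuclideanSpace ℝ (Fin 2)) :
    ∃ z z', dist z c ≤ R ∧ dist z z' = 1 ∧ z ∈ XU U 3 ∧ z' ∈ XU U 3 ∧
      (z ∈ XU U 4 ∨ z ∈ closure {x | DV U x}) := by
  by_contra hcon
  have hφ : ∀ z, dist z (φ.symm c) ≤ R → dist (φ z) c ≤ R := by
    intro z hz
    rw [← φ.apply_symm_apply c, φ.dist_map]
    exact hz
  obtain ⟨T, hT, hmin, h4⟩ := exists_T_discPair (U := fun i => φ ⁻¹' U i)
    (fun i => maximal_preimage (hU i) φ) (by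
      rw [← preimage_iUnion]
      exact hd.preimage φ.toHomeomorph.isOpenMap)
    (D := closedBall (φ.symm c) R) isClosed_closedBall
    (fun z hz h3 h v hv hzv => hcon ⟨φ z, φ v, hφ z hz, by rw [φ.dist_map]; exact hzv, hXU 3 z h3,
      hXU 3 v hv, h.imp (hXU 4 z) (hcDV z)⟩)
  exact top _ T (φ.symm c) hT hmin fun z hz v => h4 z hz v

/-- **Two points at distance one in every disc** -/
theorem disc_pair (H6 : NoSixALoc) (HA : ActLoc)
    {U : Fin 6 → Set (EuclideanSpace ℝ (Fin 2))} (hd : Dense (⋃ i, U i))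
    (hU : ∀ i, Maximal (fun W : Set (EuclideanSpace ℝ (Fin 2)) =>
      IsOpen W ∧ ∀ x ∈ W, ∀ y ∈ W, dist x y ≠ 1) (U i)) (c : EuclideanSpace ℝ (Fin 2)) :
    ∃ z z', dist z c ≤ 38 ∧ dist z z' = 1 ∧ z ∈ XU U 3 ∧ z' ∈ XU U 3 ∧
      (z ∈ XU U 4 ∨ z ∈ closure {x | DV U x}) :=
  exists_discPair_of hU hd (fun _ _ c h hmin hu => disc_pair_core H6 HA h hmin c hu) c

end Vale.Agent.P032.R2.H306
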