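import Mathlib

/-!
# P032: real induction over generic times

A value which is attached to the points of a dense set of times, and which is the same at all of them
close to any given time of an open interval, is the same at all of them in the interval.
-/

open Set Filter Topology Metric

namespace Vale.Agent.P032.R2.H306

/-- **Real induction over generic times.** -/
theorem const_generic {G : Set ℝ} (hG : Dense G) (hGo : IsOpen G) {a b : ℝ} {P : ℝ → ℕ → Prop}
    (hex : ∀ u ∈ G, a < u → u < b → ∃ n, P u n)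
    (hloc : ∀ t ∈ Ioo a b, ∃ η > 0, ∀ u v, u ∈ G → v ∈ G → |u - t| < η → |v - t| < η →
      a < u → u < b → a < v → v < b → ∀ m n, P u m → P v n → m = n)
    {u v : ℝ} (hu : u ∈ G) (hv : v ∈ G) (h1 : a < u) (h2 : u < b) (h3 : a < v) (h4 : v < b)
    {m n : ℕ} (hm : P u m) (hn : P v n) : m = n := by
  have _ := hGo
  -- generic times close to a given one
  have near : ∀ t ∈ Ioo a b, ∀ δ > 0, ∃ w ∈ G, |w - t| < δ ∧ a < w ∧ w < b := by
    intro t ht δ hδ
    obtain ⟨w, hw, hwG⟩ := hG.inter_open_nonempty (Ioo a b ∩ ball t δ)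
      (isOpen_Ioo.inter isOpen_ball) ⟨t, ht, mem_ball_self hδ⟩
    exact ⟨w, hwG, by rw [← Real.dist_eq]; exact hw.2, hw.1.1, hw.1.2⟩
  set Q : ℝ → ℕ → Prop := fun t k => ∃ η > 0, ∀ w ∈ G, |w - t| < η → a < w → w < b →
    ∀ j, P w j → j = k with hQ
  have hQex : ∀ t ∈ Ioo a b, ∃ k, Q t k := by
    intro t ht
    obtain ⟨η, hη, h⟩ := hloc t ht
    obtain ⟨w, hw, hwt, hwa, hwb⟩ := near t ht η hη
    obtain ⟨k, hk⟩ := hex w hw hwa hwb
    exact ⟨k, η, hη, fun w' hw' hwt' ha' hb' j hj => h w' w hw' hw hwt' hwt ha' hb' hwa hwb j k hj hk⟩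
  have hQu : ∀ t ∈ Ioo a b, ∀ k k', Q t k → Q t k' → k = k' := by
    rintro t ht k k' ⟨η, hη, h⟩ ⟨η', hη', h'⟩
    obtain ⟨w, hw, hwt, hwa, hwb⟩ := near t ht (min η η') (lt_min hη hη')
    obtain ⟨j, hj⟩ := hex w hw hwa hwb
    rw [← h w hw (hwt.trans_le (min_le_left _ _)) hwa hwb j hj,
      ← h' w hw (hwt.trans_le (min_le_right _ _)) hwa hwb j hj]
  choose c hc using hQex
  set f : Ioo a b → ℕ := fun t => c t.1 t.2 with hf
  have hloc' : IsLocallyConstant f := by
    rw [IsLocallyConstant.iff_eventually_eq]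
    intro t
    obtain ⟨η, hη, h⟩ := hc t.1 t.2
    have h5 : ∀ᶠ t' : Ioo a b in 𝓝 t, dist (t' : ℝ) (t : ℝ) < η / 2 := by
      have := (continuous_subtype_val (p := fun x => x ∈ Ioo a b)).tendsto t
      exact this.eventually (ball_mem_nhds _ (half_pos hη))
    filter_upwards [h5] with t' ht'
    refine hQu t'.1 t'.2 _ _ (hc t'.1 t'.2) ⟨η / 2, half_pos hη, fun w hw hwt => ?_⟩
    refine h w hw ?_
    have e : w - t.1 = (w - t'.1) + (t'.1 - t.1) := by ring
    rw [Real.dist_eq] at ht'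
    calc |w - t.1| ≤ |w - t'.1| + |t'.1 - t.1| := by rw [e]; exact abs_add_le _ _
      _ < η := by linarith
  have : PreconnectedSpace (Ioo a b) := Subtype.preconnectedSpace isPreconnected_Ioo
  have key : f ⟨u, h1, h2⟩ = f ⟨v, h3, h4⟩ := hloc'.apply_eq_of_preconnectedSpace _ _
  have hval : ∀ (w : ℝ) (hw : w ∈ Ioo a b) (k : ℕ), w ∈ G → P w k → k = c w hw := by
    intro w hw k hwG hk
    obtain ⟨η, hη, h⟩ := hc w hw
    exact h w hwG (by simpa using hη) hw.1 hw.2 k hk
  rw [hval u ⟨h1, h2⟩ m hu hm, hval v ⟨h3, h4⟩ n hv hn]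
  exact key

end Vale.Agent.P032.R2.H306
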